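import Mathlib

/-!
# The corner lemma for a co-Schwarz noise

`S` is a self-dual, trace preserving, 2-positive map with `S(Y)ᴴ S(Y) ≤ S(Y Yᴴ)`.  Every corner `C`
of `(r, r')` gives a Hermitian corner `Z` of `(S r, S r')` with
`tr Z ≥ 4 μ Re tr C - 2 μ² (tr r + tr r')` for every real `μ`.
-/

set_option autoImplicit false

namespace Vale.Agent.P372.H555

open Matrix
open scoped ComplexOrder MatrixOrder Matrix.Norms.L2Operator

variable {m : Type*} [Fintype m] [DecidableEq m]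

/-- hypotheses on the noise -/
structure Noise (S : Matrix m m ℂ → Matrix m m ℂ) : Prop where
  dual : ∀ X Y, (S X * Y).trace = (X * S Y).trace
  star : ∀ Y, S Yᴴ = (S Y)ᴴ
  tr : ∀ X, (S X).trace = X.trace
  two : ∀ X C Y, (fromBlocks X C Cᴴ Y).PosSemidef →
    (fromBlocks (S X) (S C) (S C)ᴴ (S Y)).PosSemidef
  co : ∀ Y, (S (Y * Yᴴ) - (S Y)ᴴ * S Y).PosSemidef

theorem tr_nonneg {X : Matrix m m ℂ} (h : X.PosSemidef) : 0 ≤ X.trace.re :=
  (RCLike.le_iff_re_im.1 h.trace_nonneg).1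

theorem tr_mul_nonneg {X Y : Matrix m m ℂ} (hX : X.PosSemidef) (hY : Y.PosSemidef) :
    0 ≤ (X * Y).trace.re := by
  obtain ⟨B, rfl⟩ := CStarAlgebra.nonneg_iff_eq_star_mul_self.1 hY.nonneg
  rw [Matrix.star_eq_conjTranspose]
  rw [← Matrix.mul_assoc, Matrix.trace_mul_comm, ← Matrix.mul_assoc]
  exact tr_nonneg (hX.mul_mul_conjTranspose_same B)

/-- a block positive matrix tested on the pair `(P, Q)` -/
theorem block_test {r C r' : Matrix m m ℂ} (h : (fromBlocks r C Cᴴ r').PosSemidef)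
    (P Q : Matrix m m ℂ) :
    0 ≤ (Pᴴ * r * P + Pᴴ * C * Q + Qᴴ * Cᴴ * P + Qᴴ * r' * Q).trace.re := by
  have h1 := h.conjTranspose_mul_mul_same (fromRows P Q)
  have h2 : (fromRows P Q)ᴴ * fromBlocks r C Cᴴ r' * fromRows P Q =
      Pᴴ * r * P + Pᴴ * C * Q + Qᴴ * Cᴴ * P + Qᴴ * r' * Q := by
    rw [Matrix.conjTranspose_fromRows_eq_fromCols_conjTranspose, Matrix.fromCols_mul_fromBlocks,
      Matrix.fromCols_mul_fromRows]
    noncomm_ring
  rw [h2] at h1
  exact tr_nonneg h1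

/-- the flip lemma -/
theorem flip {S : Matrix m m ℂ → Matrix m m ℂ} (hS : Noise S) {r C r' : Matrix m m ℂ}
    (h : (fromBlocks r C Cᴴ r').PosSemidef) (hr0 : r.PosSemidef) (hr : (S r).PosDef) :
    (S C * (S r)⁻¹ * (S C)ᴴ).trace.re ≤ r'.trace.re := by
  set s := S r with hs
  set K := S C with hK
  have hu : IsUnit s.det := (Matrix.isUnit_iff_isUnit_det _).1 hr.isUnit
  have hsh : sᴴ = s := hr.1
  have hsi : (s⁻¹)ᴴ = s⁻¹ := by rw [Matrix.conjTranspose_nonsing_inv, hsh]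
  set Y : Matrix m m ℂ := s⁻¹ * Kᴴ with hY
  have hYH : Yᴴ = K * s⁻¹ := by
    rw [hY, Matrix.conjTranspose_mul, Matrix.conjTranspose_conjTranspose, hsi]
  have h1 := block_test h (S Y)ᴴ (-1)
  have h2 : ((S Y)ᴴᴴ * r * (S Y)ᴴ + (S Y)ᴴᴴ * C * (-1) + (-1)ᴴ * Cᴴ * (S Y)ᴴ +
      (-1)ᴴ * r' * (-1)).trace.re =
      (r * ((S Y)ᴴ * S Y)).trace.re - 2 * (C * S Y).trace.re + r'.trace.re := by
    have e1 : ((S Y)ᴴᴴ * r * (S Y)ᴴ).trace = (r * ((S Y)ᴴ * S Y)).trace := by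
      rw [Matrix.conjTranspose_conjTranspose, Matrix.mul_assoc, Matrix.trace_mul_comm,
        Matrix.mul_assoc]
    have e2 : ((S Y)ᴴᴴ * C * (-1)).trace = -(C * S Y).trace := by
      rw [Matrix.conjTranspose_conjTranspose, Matrix.mul_neg, Matrix.mul_one, Matrix.trace_neg,
        Matrix.trace_mul_comm]
    have e3 : ((-1 : Matrix m m ℂ)ᴴ * Cᴴ * (S Y)ᴴ).trace.re = -(C * S Y).trace.re := by
      rw [Matrix.conjTranspose_neg, Matrix.conjTranspose_one, Matrix.neg_mul, Matrix.one_mul,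
        Matrix.neg_mul, Matrix.trace_neg, Complex.neg_re, ← Matrix.conjTranspose_mul,
        Matrix.trace_conjTranspose, Complex.star_def, Complex.conj_re, Matrix.trace_mul_comm]
    have e4 : ((-1 : Matrix m m ℂ)ᴴ * r' * (-1)).trace = r'.trace := by
      rw [Matrix.conjTranspose_neg, Matrix.conjTranspose_one, Matrix.neg_mul, Matrix.one_mul,
        neg_mul_neg, Matrix.mul_one]
    rw [Matrix.trace_add, Matrix.trace_add, Matrix.trace_add, Complex.add_re, Complex.add_re,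
      Complex.add_re, e1, e2, e3, e4, Complex.neg_re]
    ring
  rw [h2] at h1
  have h3 : 0 ≤ (r * (S (Y * Yᴴ) - (S Y)ᴴ * S Y)).trace.re := tr_mul_nonneg hr0 (hS.co Y)
  rw [Matrix.mul_sub, Matrix.trace_sub, Complex.sub_re, ← hS.dual] at h3
  have h4 : (S r * (Y * Yᴴ)).trace = (K * s⁻¹ * Kᴴ).trace := by
    rw [← hs, hYH, hY]
    have : s * (s⁻¹ * Kᴴ * (K * s⁻¹)) = Kᴴ * (K * s⁻¹) := by
      rw [Matrix.mul_assoc s⁻¹, Matrix.mul_nonsing_inv_cancel_left _ _ hu]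
    rw [this, Matrix.trace_mul_comm]
  have h5 : (C * S Y).trace = (K * s⁻¹ * Kᴴ).trace := by
    rw [← hS.dual, ← hK, hY, Matrix.mul_assoc]
  rw [h4] at h3
  rw [h5] at h1
  linarith

/-- **The corner lemma.** -/
theorem corner {S : Matrix m m ℂ → Matrix m m ℂ} (hS : Noise S) {r C r' : Matrix m m ℂ}
    (h : (fromBlocks r C Cᴴ r').PosSemidef) (hr0 : r.PosSemidef) (hr : (S r).PosDef) :
    ∃ Z : Matrix m m ℂ, Z.IsHermitian ∧ (fromBlocks (S r) Z Z (S r')).PosSemidef ∧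
      ∀ μ : ℝ, 4 * μ * C.trace.re - 2 * μ ^ 2 * (r.trace.re + r'.trace.re) ≤ Z.trace.re := by
  have hflip := flip hS h hr0 hr
  have hblk := hS.two r C r' h
  have htrC := hS.tr C
  have htrr := hS.tr r
  set s := S r with hs
  set s' := S r' with hs'
  set K := S C with hK
  have hu : IsUnit s.det := (Matrix.isUnit_iff_isUnit_det _).1 hr.isUnit
  have hsh : sᴴ = s := hr.1
  have hsi : (s⁻¹)ᴴ = s⁻¹ := by rw [Matrix.conjTranspose_nonsing_inv, hsh]
  have hsip : (s⁻¹).PosDef := hr.inv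
  set N : Matrix m m ℂ := s + K * s⁻¹ * Kᴴ with hN
  have hNp : N.PosDef := hr.add_posSemidef (hsip.posSemidef.mul_mul_conjTranspose_same K)
  have huN : IsUnit N.det := (Matrix.isUnit_iff_isUnit_det _).1 hNp.isUnit
  have hNh : Nᴴ = N := hNp.1
  have hNi : (N⁻¹)ᴴ = N⁻¹ := by rw [Matrix.conjTranspose_nonsing_inv, hNh]
  set Z : Matrix m m ℂ := (2 : ℂ) • (Kᴴ * N⁻¹ * K) with hZ
  have hZh : Zᴴ = Z := by
    rw [hZ, Matrix.conjTranspose_smul, Matrix.conjTranspose_mul, Matrix.conjTranspose_mul,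
      Matrix.conjTranspose_conjTranspose, hNi, Matrix.mul_assoc]
    simp
  refine ⟨Z, hZh, ?_, ?_⟩
  · have := hr.isUnit.invertible
    have h1 : (s' - Kᴴ * s⁻¹ * K).PosSemidef := (Matrix.PosDef.fromBlocks₁₁ K s' hr).1 hblk
    have h2 : (s' - Zᴴ * s⁻¹ * Z).PosSemidef := by
      set X : Matrix m m ℂ := 1 - (2 : ℂ) • (s * N⁻¹) with hX
      have h3 : Zᴴ * s⁻¹ * Z = (4 : ℂ) • (Kᴴ * N⁻¹ * (N - s) * N⁻¹ * K) := by
        have : N - s = K * s⁻¹ * Kᴴ := by rw [hN]; abel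
        rw [hZh, this, hZ]
        simp only [Matrix.smul_mul, Matrix.mul_smul, smul_smul, Matrix.mul_assoc]
        norm_num
      have h4 : Kᴴ * s⁻¹ * K - Zᴴ * s⁻¹ * Z = (X * K)ᴴ * s⁻¹ * (X * K) := by
        have e1 : N⁻¹ * N = 1 := Matrix.nonsing_inv_mul _ huN
        have e2 : s⁻¹ * s = 1 := Matrix.nonsing_inv_mul _ hu
        have e3 : s * s⁻¹ = 1 := Matrix.mul_nonsing_inv _ hu
        have hXH : Xᴴ = 1 - (2 : ℂ) • (N⁻¹ * s) := by
          rw [hX, Matrix.conjTranspose_sub, Matrix.conjTranspose_one, Matrix.conjTranspose_smul,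
            Matrix.conjTranspose_mul, hNi, hsh]
          simp
        have e4 : Xᴴ * s⁻¹ * X = s⁻¹ - (4 : ℂ) • (N⁻¹ * (N - s) * N⁻¹) := by
          rw [hXH, hX]
          have a1 : N⁻¹ * (N - s) * N⁻¹ = N⁻¹ - N⁻¹ * s * N⁻¹ := by
            rw [Matrix.mul_sub, e1, Matrix.sub_mul, Matrix.one_mul]
          rw [a1]
          have a2 : (1 - (2 : ℂ) • (N⁻¹ * s)) * s⁻¹ = s⁻¹ - (2 : ℂ) • N⁻¹ := by
            rw [Matrix.sub_mul, Matrix.one_mul, Matrix.smul_mul, Matrix.mul_assoc, e3,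
              Matrix.mul_one]
          rw [a2, Matrix.mul_sub, Matrix.mul_one, Matrix.sub_mul, Matrix.mul_smul,
            Matrix.mul_smul, ← Matrix.mul_assoc, e2, Matrix.one_mul, Matrix.smul_mul,
            ← Matrix.mul_assoc]
          module
        calc Kᴴ * s⁻¹ * K - Zᴴ * s⁻¹ * Z
            = Kᴴ * (s⁻¹ - (4 : ℂ) • (N⁻¹ * (N - s) * N⁻¹)) * K := by
              rw [h3, Matrix.mul_sub Kᴴ s⁻¹, Matrix.sub_mul, Matrix.mul_smul, Matrix.smul_mul]
              simp only [Matrix.mul_assoc]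
          _ = Kᴴ * (Xᴴ * s⁻¹ * X) * K := by rw [e4]
          _ = (X * K)ᴴ * s⁻¹ * (X * K) := by
              rw [Matrix.conjTranspose_mul]
              simp only [Matrix.mul_assoc]
      have h5 : (Kᴴ * s⁻¹ * K - Zᴴ * s⁻¹ * Z).PosSemidef := by
        rw [h4]
        exact hsip.posSemidef.conjTranspose_mul_mul_same _
      have h6 := h1.add h5
      rwa [sub_add_sub_cancel] at h6
    have h7 := (Matrix.PosDef.fromBlocks₁₁ Z s' hr).2 h2
    rwa [hZh] at h7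
  · intro μ
    have h1 : 0 ≤ ((K - (μ : ℂ) • N)ᴴ * N⁻¹ * (K - (μ : ℂ) • N)).trace.re :=
      tr_nonneg (hNp.inv.posSemidef.conjTranspose_mul_mul_same _)
    have e1 : N⁻¹ * N = 1 := Matrix.nonsing_inv_mul _ huN
    have e2 : N * N⁻¹ = 1 := Matrix.mul_nonsing_inv _ huN
    have h2 : (K - (μ : ℂ) • N)ᴴ * N⁻¹ * (K - (μ : ℂ) • N) =
        Kᴴ * N⁻¹ * K - (μ : ℂ) • Kᴴ - (μ : ℂ) • K + ((μ : ℂ) ^ 2) • N := by
      rw [Matrix.conjTranspose_sub, Matrix.conjTranspose_smul, hNh, Complex.star_def,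
        Complex.conj_ofReal, Matrix.sub_mul, Matrix.smul_mul, e2, Matrix.sub_mul, Matrix.mul_sub,
        Matrix.mul_smul, Matrix.smul_mul, Matrix.one_mul, Matrix.mul_assoc Kᴴ N⁻¹ N, e1,
        Matrix.mul_one]
      module
    rw [h2] at h1
    have h3 : (Kᴴ).trace.re = K.trace.re := by
      rw [Matrix.trace_conjTranspose, Complex.star_def, Complex.conj_re]
    have h4 : N.trace.re ≤ r.trace.re + r'.trace.re := by
      rw [hN, Matrix.trace_add, Complex.add_re, htrr]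
      linarith
    have h5 : Z.trace.re = 2 * (Kᴴ * N⁻¹ * K).trace.re := by
      rw [hZ, Matrix.trace_smul, smul_eq_mul]
      simp
    rw [Matrix.trace_add, Matrix.trace_sub, Matrix.trace_sub, Matrix.trace_smul,
      Matrix.trace_smul, Matrix.trace_smul] at h1
    simp only [smul_eq_mul, Complex.add_re, Complex.sub_re, ← Complex.ofReal_pow,
      Complex.re_ofReal_mul, h3] at h1
    rw [htrC] at h1
    rw [h5]
    nlinarith [sq_nonneg μ, mul_le_mul_of_nonneg_left h4 (sq_nonneg μ)]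

end Vale.Agent.P372.H555
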